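import Mathlib
import Vale.Agent.Lib.P037.Bridge

namespace Vale.Agent.Results.P037.A_diag

open Vale.Agent.Lib.P037

/-- Polynomial removal for the two diagonal `2 × 2` patterns, with `c = 10 ^ (-48)`, `C = 48`. -/
theorem result (H : Fin 2 → Fin 2 → Bool) (hH : H = diag2 ∨ H = antidiag2)
    (n : ℕ) (hn : 1 ≤ n) (A : Fin n → Fin n → Bool) (ε : ℝ) (h0 : 0 < ε) (h1 : ε < 1)
    (hfar : IsFar H A ε) :
    (ε / 10) ^ 48 * (n : ℝ) ^ 4 ≤ (copies H A : ℝ) := by
  rcases hH with rfl | rfl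
  · exact removal_diag hn A h0 h1 hfar
  · exact removal_antidiag hn A h0 h1 hfar

end Vale.Agent.Results.P037.A_diag
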