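import Vale.Agent.Lib.P037.Defs
import Vale.Agent.Lib.P037_helper52.Final

/-! The ordered matrix removal lemma for every pattern, with a double exponential bound. -/

namespace Vale.Agent.Results.P037.A_general_dexp

open Vale.Agent.Lib.P037

/-- For every size `k` there is a constant `C` such that every binary `k × k` pattern `H`,
every `n ≥ 1`, every `0 < ε < 1` and every binary `n × n` matrix `A` that is `ε`-far from
`H`-free satisfy `N_H(A) ≥ exp (- exp ((C / ε) ^ C)) * n ^ (2 k)`. -/
theorem result (k : ℕ) :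
    ∃ C : ℕ, 1 ≤ C ∧ ∀ (H : Fin k → Fin k → Bool) (n : ℕ) (A : Fin n → Fin n → Bool) (ε : ℝ),
      1 ≤ n → 0 < ε → ε < 1 → IsFar H A ε →
      Real.exp (-Real.exp (((C : ℝ) / ε) ^ C)) * (n : ℝ) ^ (2 * k) ≤ (copies H A : ℝ) :=
  Vale.Agent.Lib.P037_helper52.removal_dexp k

end Vale.Agent.Results.P037.A_general_dexp
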