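import Vale.Agent.Results.P037.A_all2x2
import Vale.Agent.Results.P037.A_diag
import Vale.Agent.Results.P037.A_general_dexp

/-!
Removal for single ordered binary patterns: polynomial for all `2 × 2` patterns, double exponential,
uniformly in the pattern, for every size.
-/

namespace Vale.Agent.Results.P037.A0_master

open Vale.Agent.Lib.P037

/-- The three removal bounds together. -/
theorem result :
    (∀ (H : Fin 2 → Fin 2 → Bool) (n : ℕ), 1 ≤ n → ∀ (A : Fin n → Fin n → Bool) (ε : ℝ),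
      0 < ε → ε < 1 → IsFar H A ε → (ε / 100) ^ 48 * (n : ℝ) ^ 4 ≤ (copies H A : ℝ)) ∧
    (∀ H : Fin 2 → Fin 2 → Bool, (H = diag2 ∨ H = antidiag2) →
      ∀ n : ℕ, 1 ≤ n → ∀ (A : Fin n → Fin n → Bool) (ε : ℝ),
      0 < ε → ε < 1 → IsFar H A ε → (ε / 10) ^ 48 * (n : ℝ) ^ 4 ≤ (copies H A : ℝ)) ∧
    (∀ k : ℕ, ∃ C : ℕ, 1 ≤ C ∧ ∀ (H : Fin k → Fin k → Bool) (n : ℕ) (A : Fin n → Fin n → Bool) (ε : ℝ),
      1 ≤ n → 0 < ε → ε < 1 → IsFar H A ε →
      Real.exp (-Real.exp (((C : ℝ) / ε) ^ C)) * (n : ℝ) ^ (2 * k) ≤ (copies H A : ℝ)) :=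
  ⟨fun H n hn A ε h0 h1 hfar => Vale.Agent.Results.P037.A_all2x2.result H n hn A ε h0 h1 hfar,
    fun H hH n hn A ε h0 h1 hfar => Vale.Agent.Results.P037.A_diag.result H hH n hn A ε h0 h1 hfar,
    fun k => Vale.Agent.Results.P037.A_general_dexp.result k⟩

end Vale.Agent.Results.P037.A0_master
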