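import Mathlib
import Vale.Agent.Lib.P037.Sym

namespace Vale.Agent.Results.P037.A_all2x2

open Vale.Agent.Lib.P037

/-- Polynomial removal for every binary `2 × 2` pattern, with `c = 100 ^ (-48)`, `C = 48`. -/
theorem result (H : Fin 2 → Fin 2 → Bool)
    (n : ℕ) (hn : 1 ≤ n) (A : Fin n → Fin n → Bool) (ε : ℝ) (h0 : 0 < ε) (h1 : ε < 1)
    (hfar : IsFar H A ε) :
    (ε / 100) ^ 48 * (n : ℝ) ^ 4 ≤ (copies H A : ℝ) :=
  Rem_all H n hn A ε h0 h1 hfar

end Vale.Agent.Results.P037.A_all2x2
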